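import Vale.Agent.H2.P064.Gen
import Vale.Agent.H2.P064.T5

/-! Assembly: from an abstract spread bound with one logarithm to `f(n) = O(log² n)`. -/

namespace Vale.Agent.H2.P064

open Finset Classical

theorem asm_log (K : ℝ) (hK : 1 ≤ K)
    (h : ∀ (n : ℕ), 2 ≤ n → ∀ (q : ℝ), 0 < q → ∀ H : Finset (EX n), Hyp (act n) q H →
      ∀ U ⊆ H, U.Nonempty → P (act n) H U ≤ (K * (1 + Real.log H.card) * q) ^ U.card) :
    ∃ C : ℝ, 0 < C ∧ ∀ n : ℕ, 2 ≤ n → ∀ (V : Type) [Fintype V] (H : SimpleGraph V),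
      H ≠ ⊥ → Fintype.card V ≤ n → pc n H ≤ C * pE n H * Real.log n ^ 2 := by
  obtain ⟨K', hK', hg⟩ := graph_of_spread
  refine ⟨K' * (4 * K), by positivity, ?_⟩
  intro n hn V _ H hH hV
  have hn' : (2 : ℝ) ≤ n := by exact_mod_cast hn
  have hl2 := Real.log_two_gt_d9
  have hlog : 0.69 ≤ Real.log n := by
    have := Real.log_le_log (by norm_num) hn'
    linarith
  have h1 := hg n hn V H hH hV (4 * K * Real.log n) (by nlinarith) ?_
  · refine h1.trans (le_of_eq ?_)
    ring
  · intro ι q hq _ hyp U hU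
    rcases U.eq_empty_or_nonempty with rfl | hU0
    · rw [P_empty]; simp
    · refine (h n hn q hq _ hyp U hU hU0).trans ?_
      have hne : (0 : ℝ) < (edg ι H).card := by
        exact_mod_cast Finset.card_pos.2 (hU0.mono hU)
      have h2 : Real.log ((edg ι H).card : ℝ) ≤ 2 * Real.log n := by
        have h3 : (edg ι H).card ≤ n ^ 2 := by
          calc (edg ι H).card ≤ Fintype.card (EX n) := Finset.card_le_univ _
            _ = n.choose 2 := by rw [Sym2.card_subtype_not_diag, Fintype.card_fin]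
            _ ≤ n ^ 2 := Nat.choose_le_pow n 2
        have h4 : ((edg ι H).card : ℝ) ≤ (n : ℝ) ^ 2 := by exact_mod_cast h3
        calc Real.log ((edg ι H).card : ℝ) ≤ Real.log ((n : ℝ) ^ 2) := Real.log_le_log hne h4
          _ = 2 * Real.log n := by rw [Real.log_pow]; push_cast; ring
      have h5 : 0 ≤ Real.log ((edg ι H).card : ℝ) := Real.log_natCast_nonneg _
      apply pow_le_pow_left₀ (by positivity)
      apply mul_le_mul_of_nonneg_right _ hq.le
      nlinarith

end Vale.Agent.H2.P064
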