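import Vale.Agent.H2.P064.Boot

/-! The spread bound with one logarithm, from the key recursion. -/

namespace Vale.Agent.H2.P064

open Finset Classical

set_option linter.unusedSectionVars false

section Act
variable {X G : Type} [Fintype X] [Group G] [Fintype G] (a : G →* Equiv.Perm X)

/-- The key recursion (part 1). -/
def KeyR : Prop := ∀ (q : ℝ), 0 < q → ∀ (W F : Finset X), Hyp a q W → W.Nonempty →
  ∀ th : ℕ → ℝ, (∀ j, 0 ≤ th j) → th 0 = 0 → 0 < P a W F →
  (∀ Z, Z ⊆ W → 2 * Z.card < W.card →
    P a W F ≤ (∑ g : G, if im a g F ⊆ W then th (im a g F \ Z).card else 0) / Fintype.card G) →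
  P a W F ≤ 3 * ∑ A ∈ F.powerset, th (F.card - A.card) * P a W A * (4 * q) ^ (F.card - A.card)

theorem exists_joint_max (H : Finset X) (hH : H.Nonempty) (lam κ : ℝ) (hl : 0 < lam) :
    ∃ W ⊆ H, W.Nonempty ∧ ∃ F ⊆ H, ∃ rho : ℝ, 1 ≤ rho ∧
      P a W F = rho * (lam * (W.card : ℝ) ^ κ) ^ F.card ∧
      ∀ W' ⊆ H, W'.Nonempty → ∀ F' ⊆ H,
        P a W' F' ≤ rho * (lam * (W'.card : ℝ) ^ κ) ^ F'.card := by
  have hne : ((H.powerset.filter (fun W => W.Nonempty)) ×ˢ H.powerset).Nonempty :=
    ⟨(H, ∅), by simp [hH]⟩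
  obtain ⟨⟨W, F⟩, hWF, hmax⟩ := Finset.exists_max_image
    ((H.powerset.filter (fun W => W.Nonempty)) ×ˢ H.powerset)
    (fun z => P a z.1 z.2 / (lam * (z.1.card : ℝ) ^ κ) ^ z.2.card) hne
  simp only [Finset.mem_product, Finset.mem_filter, Finset.mem_powerset] at hWF hmax
  have hpos : ∀ W' : Finset X, W'.Nonempty → 0 < lam * (W'.card : ℝ) ^ κ := by
    intro W' h
    have : (0 : ℝ) < W'.card := by exact_mod_cast Finset.card_pos.2 h
    positivity
  refine ⟨W, hWF.1.1, hWF.1.2, F, hWF.2, P a W F / (lam * (W.card : ℝ) ^ κ) ^ F.card, ?_, ?_, ?_⟩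
  · have := hmax (W, ∅) ⟨hWF.1, Finset.empty_subset _⟩
    simpa [P_empty] using this
  · have := pow_pos (hpos W hWF.1.2) F.card
    field_simp
  · intro W' hW' hW'0 F' hF'
    have := hmax (W', F') ⟨⟨hW', hW'0⟩, hF'⟩
    rwa [div_le_iff₀ (pow_pos (hpos W' hW'0) _)] at this

theorem exp_neg_le (t : ℝ) (h0 : 0 ≤ t) (h1 : t ≤ 1) : Real.exp (-t) ≤ 1 - t / 2 := by
  have h2 : 1 + t ≤ Real.exp t := by have := Real.add_one_le_exp t; linarith
  rw [Real.exp_neg]
  have h3 : (Real.exp t)⁻¹ ≤ (1 + t)⁻¹ := inv_anti₀ (by linarith) h2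
  refine h3.trans ?_
  rw [inv_le_iff_one_le_mul₀ (by linarith)]
  nlinarith

/-- counting: the sum over `e ∈ W \ Z` -/
theorem sum_sdiff (W F Z : Finset X) (hZ : Z ⊆ W) :
    (∑ g : G, if im a g F ⊆ W then ((im a g F \ Z).card : ℝ) else 0) =
      Fintype.card G * ∑ e ∈ W \ Z, (P a W F - P a (W.erase e) F) := by
  have h1 : ∀ g : G, (if im a g F ⊆ W then ((im a g F \ Z).card : ℝ) else 0) =
      ∑ e ∈ W \ Z, ((if im a g F ⊆ W then (1:ℝ) else 0) -
        (if im a g F ⊆ W.erase e then (1:ℝ) else 0)) := by
    intro g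
    by_cases h : im a g F ⊆ W
    · have h2 : ∀ e ∈ W \ Z, ((if im a g F ⊆ W then (1:ℝ) else 0) -
        (if im a g F ⊆ W.erase e then (1:ℝ) else 0)) = if e ∈ im a g F then 1 else 0 := by
        intro e _
        by_cases he : e ∈ im a g F
        · have h3 : ¬ im a g F ⊆ W.erase e := fun h' => Finset.notMem_erase e W (h' he)
          rw [if_pos h, if_neg h3, if_pos he]; norm_num
        · have h3 : im a g F ⊆ W.erase e := Finset.subset_erase.2 ⟨h, he⟩
          rw [if_pos h, if_pos h3, if_neg he]; norm_num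
      rw [if_pos h, Finset.sum_congr rfl h2, Finset.sum_boole]
      congr 2
      ext e
      simp only [Finset.mem_sdiff, Finset.mem_filter]
      constructor
      · rintro ⟨h3, h4⟩; exact ⟨⟨h h3, h4⟩, h3⟩
      · rintro ⟨⟨_, h4⟩, h3⟩; exact ⟨h3, h4⟩
    · rw [if_neg h]
      symm
      apply Finset.sum_eq_zero
      intro e _
      have h3 : ¬ im a g F ⊆ W.erase e := fun h' => h (h'.trans (Finset.erase_subset _ _))
      simp [h, h3]
  rw [Finset.sum_congr rfl (fun g _ => h1 g), Finset.sum_comm, Finset.mul_sum]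
  apply Finset.sum_congr rfl
  intro e _
  have hG : (0:ℝ) < (Fintype.card G : ℝ) := cardG_pos
  rw [P_eq, P_eq, Finset.sum_sub_distrib]
  field_simp

/-- The final numerical sum. -/
theorem final_sum (r : ℕ) (κ : ℝ) (hκ : 0 < κ) (hr : 0 < r) (th : ℕ → ℝ)
    (hth : ∀ j, th j = if κ * r ≤ 8 * (j : ℝ) then 8 * (j : ℝ) / (κ * r) else 0) :
    3 * ∑ j ∈ range (r + 1), (r.choose j : ℝ) * (th j * (κ / 128) ^ j) < 1 := by
  have hr0 : (0:ℝ) < r := by exact_mod_cast hr
  have hγ : 0 < κ * r := by positivity
  have hth0 : th 0 = 0 := by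
    rw [hth, if_neg]; push_cast; linarith
  have he := Real.exp_one_lt_d9
  have he0 := Real.exp_pos 1
  have hterm : ∀ j : ℕ, (r.choose (j+1) : ℝ) * (th (j+1) * (κ / 128) ^ (j+1)) ≤
      0.17 * 0.17 ^ j := by
    intro j
    rw [hth]
    split_ifs with h
    · push_cast at h ⊢
      set J : ℝ := (j : ℝ) + 1 with hJ
      have hJ0 : 0 < J := by positivity
      have h1 : (r.choose (j+1) : ℝ) ≤ (r : ℝ) ^ (j+1) / ((j+1).factorial : ℝ) := by
        have := Nat.choose_le_pow_div (α := ℝ) (j+1) r
        exact this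
      have hf : (0:ℝ) < ((j+1).factorial : ℝ) := by positivity
      have h2 : J ^ (j+1) / ((j+1).factorial : ℝ) ≤ Real.exp J :=
        Real.pow_div_factorial_le_exp J hJ0.le (j+1)
      have h3 : Real.exp J = Real.exp 1 ^ (j+1) := by
        rw [← Real.exp_nat_mul]; congr 1; rw [hJ]; push_cast; ring
      have h4 : (κ * r) ^ j ≤ (8 * J) ^ j := pow_le_pow_left₀ hγ.le h j
      calc (r.choose (j+1) : ℝ) * (8 * J / (κ * r) * (κ / 128) ^ (j+1))
          ≤ (r : ℝ) ^ (j+1) / ((j+1).factorial : ℝ) * (8 * J / (κ * r) * (κ / 128) ^ (j+1)) := by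
            apply mul_le_mul_of_nonneg_right h1 (by positivity)
        _ = (8 * J) * (κ * r) ^ j / 128 ^ (j+1) / ((j+1).factorial : ℝ) := by
            rw [div_pow, mul_pow]
            field_simp
            ring
        _ ≤ (8 * J) * (8 * J) ^ j / 128 ^ (j+1) / ((j+1).factorial : ℝ) := by
            gcongr
        _ = (1 / 16) ^ (j+1) * (J ^ (j+1) / ((j+1).factorial : ℝ)) := by
            have : (128:ℝ) ^ (j+1) = 8 ^ (j+1) * 16 ^ (j+1) := by
              rw [← mul_pow]; norm_num
            rw [this, one_div, inv_pow, ← pow_succ', mul_pow]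
            field_simp
        _ ≤ (1 / 16) ^ (j+1) * Real.exp 1 ^ (j+1) := by
            rw [← h3]
            apply mul_le_mul_of_nonneg_left h2 (by positivity)
        _ = (Real.exp 1 / 16) ^ (j+1) := by rw [← mul_pow]; congr 1; ring
        _ ≤ 0.17 ^ (j+1) := by
            apply pow_le_pow_left₀ (by positivity)
            linarith
        _ = 0.17 * 0.17 ^ j := by ring
    · simp only [zero_mul, mul_zero]
      positivity
  rw [Finset.sum_range_succ']
  rw [hth0]
  simp only [Nat.choose_zero_right, zero_mul, mul_zero, add_zero]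
  have h1 : ∑ j ∈ range r, (r.choose (j+1) : ℝ) * (th (j+1) * (κ / 128) ^ (j+1)) ≤
      ∑ j ∈ range r, 0.17 * 0.17 ^ j := Finset.sum_le_sum (fun j _ => hterm j)
  have h2 : (∑ j ∈ range r, (0.17:ℝ) ^ j) * (1 - 0.17) = 1 - 0.17 ^ r := geom_sum_mul_neg _ _
  rw [← Finset.mul_sum] at h1
  have h3 : (0:ℝ) ≤ 0.17 ^ r := by positivity
  have h4 : (∑ j ∈ range r, (0.17:ℝ) ^ j) ≤ 1.21 := by nlinarith
  nlinarith

theorem spread_log_of (hkey : KeyR a) (q : ℝ) (hq : 0 < q) (H : Finset X) (hH : Hyp a q H)
    (U : Finset X) (hU : U ⊆ H) (hU0 : U.Nonempty) :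
    P a H U ≤ (1500 * (1 + Real.log H.card) * q) ^ U.card := by
  have hH0 : H.Nonempty := hU0.mono hU
  have hm : (0:ℝ) < H.card := by exact_mod_cast Finset.card_pos.2 hH0
  have hlog : 0 ≤ Real.log (H.card : ℝ) := Real.log_natCast_nonneg _
  set ℓ : ℝ := 1 + Real.log (H.card : ℝ) with hℓ
  have hℓ0 : 0 < ℓ := by linarith
  set κ : ℝ := 1 / ℓ with hκ
  have hκ0 : 0 < κ := by positivity
  have hκ1 : κ ≤ 1 := by rw [hκ, div_le_one hℓ0]; linarith
  set lam : ℝ := 512 * ℓ * q with hlam
  have hlam0 : 0 < lam := by positivity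
  obtain ⟨W, hWH, hW0, F, hFH, rho, hrho, hPF, hmax⟩ := exists_joint_max a H hH0 lam κ hlam0
  have hw : (0:ℝ) < W.card := by exact_mod_cast Finset.card_pos.2 hW0
  have hw1 : (1:ℝ) ≤ W.card := by exact_mod_cast Finset.card_pos.2 hW0
  rcases F.eq_empty_or_nonempty with rfl | hF0
  · -- trivial maximiser
    rw [P_empty] at hPF
    simp only [Finset.card_empty, pow_zero, mul_one] at hPF
    have h1 := hmax H (Finset.Subset.refl _) hH0 U hU
    rw [← hPF, one_mul] at h1
    refine h1.trans ?_
    apply pow_le_pow_left₀ (by positivity)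
    have h2 : (H.card : ℝ) ^ κ ≤ Real.exp 1 := by
      rw [Real.rpow_def_of_pos hm]
      apply Real.exp_le_exp.2
      rw [hκ, mul_one_div, div_le_one hℓ0]
      linarith
    have h3 := Real.exp_one_lt_d9
    calc lam * (H.card : ℝ) ^ κ ≤ lam * 2.7182818286 := by
          apply mul_le_mul_of_nonneg_left _ hlam0.le; linarith
      _ ≤ 1500 * ℓ * q := by
          rw [hlam]
          have : 0 < ℓ * q := by positivity
          nlinarith
  · exfalso
    set r := F.card with hr
    have hr0 : 0 < r := Finset.card_pos.2 hF0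
    have hr0' : (0:ℝ) < r := by exact_mod_cast hr0
    set γ : ℝ := κ * r with hγ
    have hγ0 : 0 < γ := by positivity
    set c : ℝ := P a W F with hc
    have hbase : 0 < lam * (W.card : ℝ) ^ κ := by positivity
    have hc0 : 0 < c := by
      rw [hPF]; positivity
    have hrw : (r : ℝ) ≤ W.card := by
      obtain ⟨g, hg⟩ := (P_pos_iff a W F).1 hc0
      have := Finset.card_le_card hg
      rw [card_im] at this
      exact_mod_cast this
    have hγw : γ ≤ W.card := by
      have : γ ≤ r := by rw [hγ]; nlinarith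
      linarith
    -- erasing one element
    have herase : ∀ e ∈ W, P a (W.erase e) F ≤ c * (1 - γ / W.card / 2) := by
      intro e he
      have hcard : (W.erase e).card = W.card - 1 := Finset.card_erase_of_mem he
      have ht1 : γ / W.card ≤ 1 := by rw [div_le_one hw]; exact hγw
      have ht0 : 0 ≤ γ / W.card := by positivity
      rcases (W.erase e).eq_empty_or_nonempty with h0 | h0
      · have h1 : P a (W.erase e) F = 0 := by
          apply le_antisymm _ (P_nonneg _ _ _)
          by_contra hcon
          rw [not_le, P_pos_iff] at hcon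
          obtain ⟨g, hg⟩ := hcon
          rw [h0] at hg
          have := Finset.card_le_card hg
          rw [card_im] at this
          simp at this
          exact hF0.ne_empty this
        rw [h1]
        apply mul_nonneg hc0.le; linarith
      · have h1 := hmax (W.erase e) ((Finset.erase_subset _ _).trans hWH) h0 F hFH
        have hw2 : ((W.erase e).card : ℝ) = W.card - 1 := by
          rw [hcard, Nat.cast_sub (Finset.card_pos.2 hW0)]; simp
        have hw3 : (0:ℝ) < (W.erase e).card := by exact_mod_cast Finset.card_pos.2 h0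
        have h2 : (((W.erase e).card : ℝ) ^ κ) ≤ (W.card : ℝ) ^ κ * Real.exp (-(κ / W.card)) := by
          have h3 : ((W.erase e).card : ℝ) ≤ W.card * Real.exp (-(1 / W.card)) := by
            have h4 := Real.add_one_le_exp (-(1 / (W.card : ℝ)))
            calc ((W.erase e).card : ℝ) = W.card * (-(1 / (W.card : ℝ)) + 1) := by
                  rw [hw2]; field_simp; ring
              _ ≤ _ := mul_le_mul_of_nonneg_left h4 hw.le
          calc (((W.erase e).card : ℝ) ^ κ) ≤ (W.card * Real.exp (-(1 / W.card))) ^ κ :=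
                Real.rpow_le_rpow hw3.le h3 hκ0.le
            _ = (W.card : ℝ) ^ κ * (Real.exp (-(1 / W.card))) ^ κ :=
                Real.mul_rpow hw.le (Real.exp_pos _).le
            _ = (W.card : ℝ) ^ κ * Real.exp (-(κ / W.card)) := by
                rw [← Real.exp_mul]; congr 2; ring
        have h3 : P a (W.erase e) F ≤ c * Real.exp (-(γ / W.card)) := by
          refine h1.trans ?_
          calc rho * (lam * ((W.erase e).card : ℝ) ^ κ) ^ F.card
              ≤ rho * (lam * ((W.card : ℝ) ^ κ * Real.exp (-(κ / W.card)))) ^ F.card := by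
                apply mul_le_mul_of_nonneg_left _ (by linarith)
                apply pow_le_pow_left₀ (by positivity)
                exact mul_le_mul_of_nonneg_left h2 hlam0.le
            _ = rho * (lam * (W.card : ℝ) ^ κ) ^ F.card * (Real.exp (-(κ / W.card))) ^ F.card := by
                rw [← mul_assoc, mul_pow]; ring
            _ = c * Real.exp (-(γ / W.card)) := by
                rw [hPF, ← Real.exp_nat_mul]
                congr 2
                rw [hγ]; ring
        refine h3.trans ?_
        apply mul_le_mul_of_nonneg_left _ hc0.le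
        have := exp_neg_le (γ / W.card) ht0 ht1
        linarith
    have hG : (0:ℝ) < (Fintype.card G : ℝ) := cardG_pos
    set th : ℕ → ℝ := fun j => if κ * r ≤ 8 * (j : ℝ) then 8 * (j : ℝ) / (κ * r) else 0 with hth
    have hth' : ∀ j, th j = if κ * r ≤ 8 * (j : ℝ) then 8 * (j : ℝ) / (κ * r) else 0 :=
      fun j => rfl
    have hthn : ∀ j, 0 ≤ th j := by
      intro j; rw [hth']; split_ifs <;> positivity
    have hth0 : th 0 = 0 := by
      rw [hth', if_neg]
      push_cast
      have : 0 < κ * r := hγ0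
      linarith
    have hthl : ∀ j : ℕ, 8 / γ * (j : ℝ) - 1 ≤ th j := by
      intro j
      rw [hth']
      split_ifs with h
      · rw [hγ]
        have : 8 / (κ * r) * (j:ℝ) = 8 * (j:ℝ) / (κ * r) := by ring
        rw [this]; linarith
      · have h1 : 8 * (j:ℝ) < γ := not_le.1 h
        have h2 : 8 / γ * (j : ℝ) ≤ 1 := by
          rw [div_mul_eq_mul_div, div_le_one hγ0]; exact h1.le
        linarith
    have hrob : ∀ Z, Z ⊆ W → 2 * Z.card < W.card →
        P a W F ≤ (∑ g : G, if im a g F ⊆ W then th (im a g F \ Z).card else 0) /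
          Fintype.card G := by
      intro Z hZ hZ2
      rw [le_div_iff₀ hG]
      have h1 : ∀ g : G, 8 / γ * (if im a g F ⊆ W then ((im a g F \ Z).card : ℝ) else 0) -
          (if im a g F ⊆ W then (1:ℝ) else 0) ≤
          (if im a g F ⊆ W then th (im a g F \ Z).card else 0) := by
        intro g
        split_ifs with h
        · exact hthl _
        · simp
      have h2 := Finset.sum_le_sum (fun g (_ : g ∈ (univ : Finset G)) => h1 g)
      rw [Finset.sum_sub_distrib, ← Finset.mul_sum, sum_sdiff a W F Z hZ] at h2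
      have h3 : (∑ g : G, if im a g F ⊆ W then (1:ℝ) else 0) = c * Fintype.card G := by
        rw [hc, P_eq]; field_simp
      rw [h3] at h2
      have h4 : ∑ e ∈ W \ Z, (P a W F - P a (W.erase e) F) ≥ γ * c / 4 := by
        have h5 : ∑ e ∈ W \ Z, (P a W F - P a (W.erase e) F) ≥
            ∑ e ∈ W \ Z, c * (γ / W.card / 2) := by
          apply Finset.sum_le_sum
          intro e he
          have := herase e (Finset.mem_sdiff.1 he).1
          rw [← hc]
          linarith
        rw [Finset.sum_const, nsmul_eq_mul] at h5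
        have h6 : ((W \ Z).card : ℝ) ≥ W.card / 2 := by
          have h7 := Finset.card_sdiff_add_card_eq_card hZ
          have h8 : W.card ≤ 2 * (W \ Z).card := by omega
          have h9 : (W.card : ℝ) ≤ 2 * (W \ Z).card := by exact_mod_cast h8
          linarith
        have h7 : ((W \ Z).card : ℝ) * (c * (γ / W.card / 2)) ≥
            W.card / 2 * (c * (γ / W.card / 2)) :=
          mul_le_mul_of_nonneg_right h6 (by positivity)
        have h8 : (W.card : ℝ) / 2 * (c * (γ / W.card / 2)) = γ * c / 4 := by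
          field_simp; ring
        linarith
      have h5 : 8 / γ * (Fintype.card G * ∑ e ∈ W \ Z, (P a W F - P a (W.erase e) F)) ≥
          8 / γ * (Fintype.card G * (γ * c / 4)) := by
        apply mul_le_mul_of_nonneg_left _ (by positivity)
        apply mul_le_mul_of_nonneg_left h4 hG.le
      have h6 : 8 / γ * (Fintype.card G * (γ * c / 4)) = 2 * (c * Fintype.card G) := by
        field_simp; ring
      linarith
    have hk := hkey q hq W F (hH.mono a hWH) hW0 th hthn hth0 hc0 hrob
    -- bound the sum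
    have hPA : ∀ A ∈ F.powerset, th (F.card - A.card) * P a W A * (4 * q) ^ (F.card - A.card) ≤
        c * (th (F.card - A.card) * (κ / 128) ^ (F.card - A.card)) := by
      intro A hA
      rw [Finset.mem_powerset] at hA
      have h1 := hmax W hWH hW0 A (hA.trans hFH)
      have hAr : A.card ≤ F.card := Finset.card_le_card hA
      have hwk : 1 ≤ (W.card : ℝ) ^ κ := Real.one_le_rpow hw1 hκ0.le
      have h2 : P a W A * (4 * q) ^ (F.card - A.card) ≤ c * (κ / 128) ^ (F.card - A.card) := by
        have h3 : (4 * q) = lam * (κ / 128) := by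
          rw [hlam, hκ]; field_simp; ring
        calc P a W A * (4 * q) ^ (F.card - A.card)
            ≤ rho * (lam * (W.card : ℝ) ^ κ) ^ A.card * (lam * (κ / 128)) ^ (F.card - A.card) := by
              rw [h3]; apply mul_le_mul_of_nonneg_right h1 (by positivity)
          _ ≤ rho * (lam * (W.card : ℝ) ^ κ) ^ A.card *
                ((lam * (W.card : ℝ) ^ κ) * (κ / 128)) ^ (F.card - A.card) := by
              apply mul_le_mul_of_nonneg_left _ (by positivity)
              apply pow_le_pow_left₀ (by positivity)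
              apply mul_le_mul_of_nonneg_right _ (by positivity)
              nlinarith
          _ = rho * ((lam * (W.card : ℝ) ^ κ) ^ A.card *
                (lam * (W.card : ℝ) ^ κ) ^ (F.card - A.card)) * (κ / 128) ^ (F.card - A.card) := by
              rw [mul_pow (lam * (W.card : ℝ) ^ κ) (κ / 128)]; ring
          _ = c * (κ / 128) ^ (F.card - A.card) := by
              rw [← pow_add, Nat.add_sub_cancel' hAr, hPF]
      calc th (F.card - A.card) * P a W A * (4 * q) ^ (F.card - A.card)
          = th (F.card - A.card) * (P a W A * (4 * q) ^ (F.card - A.card)) := by ring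
        _ ≤ th (F.card - A.card) * (c * (κ / 128) ^ (F.card - A.card)) :=
            mul_le_mul_of_nonneg_left h2 (hthn _)
        _ = _ := by ring
    have hs1 := Finset.sum_le_sum hPA
    rw [← Finset.mul_sum] at hs1
    rw [sum_powerset_choose F (fun j => th (F.card - j) * (κ / 128) ^ (F.card - j))] at hs1
    have hs2 : ∑ j ∈ range (F.card + 1), (F.card.choose j : ℝ) *
        (th (F.card - j) * (κ / 128) ^ (F.card - j)) =
        ∑ j ∈ range (F.card + 1), (F.card.choose j : ℝ) * (th j * (κ / 128) ^ j) := by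
      rw [← Finset.sum_range_reflect]
      apply Finset.sum_congr rfl
      intro j hj
      have hj' : j ≤ F.card := by
        have := Finset.mem_range.1 hj; omega
      have e1 : F.card + 1 - 1 - j = F.card - j := by omega
      rw [e1, Nat.choose_symm hj', Nat.sub_sub_self hj']
    rw [hs2] at hs1
    have hfin := final_sum r κ hκ0 hr0 th hth'
    rw [← hr] at hs1
    have h1 : c ≤ 3 * (c * ∑ j ∈ range (r + 1), (r.choose j : ℝ) * (th j * (κ / 128) ^ j)) :=
      hk.trans (mul_le_mul_of_nonneg_left hs1 (by norm_num))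
    have h2 : c * (3 * ∑ j ∈ range (r + 1), (r.choose j : ℝ) * (th j * (κ / 128) ^ j)) < c * 1 :=
      mul_lt_mul_of_pos_left hfin hc0
    linarith

end Act

end Vale.Agent.H2.P064
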